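import Vale.Agent.P315.Lemmas

namespace Vale.Agent.Results.P315.CmpLower

open Vale.Agent.P315

/-- Every deterministic equality-comparison decision tree that always outputs an `α`-approximation
of the edit distance of two strings of length `n` over the alphabet `{0, ..., 2n-1}` makes at least
`n^2 / (4 α^2)` comparisons on the input `x = 0 1 ... (n-1)`, `y = n (n+1) ... (2n-1)`. -/
theorem result (n : ℕ) (α : ℝ) (hα : 1 ≤ α) (t : CmpTree n)
    (hcorrect : ∀ x y : Fin n → ℕ, (∀ i, x i < 2 * n) → (∀ j, y j < 2 * n) →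
      (ED (List.ofFn x) (List.ofFn y) : ℝ) ≤ t.eval x y ∧
      t.eval x y ≤ α * ED (List.ofFn x) (List.ofFn y)) :
    (n : ℝ) ^ 2 / (4 * α ^ 2) ≤
      t.cost (fun i : Fin n => (i : ℕ)) (fun j : Fin n => n + (j : ℕ)) :=
  cmp_lower n α hα t hcorrect

end Vale.Agent.Results.P315.CmpLower
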